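import Vale.Agent.P018.Big3
import Vale.Agent.P018.Feas2
import Vale.Agent.P018.NumH
import Vale.Agent.P018.NumG
import Vale.Agent.P018.SvD

namespace Vale.Agent.Results.P018.Saving

open Filter Topology

/-- `ρ_f(q)`: the number of residues `a` modulo `q` with `f(a) ≡ 0 (mod q)`. -/
noncomputable def rho (f : Polynomial ℤ) (q : ℕ) : ℕ :=
  Nat.card {a : ZMod q // Polynomial.aeval a f = 0}

/-- `a` is `k`-power-free: no `k`-th power of a prime divides it. -/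
def PowerFree (k : ℕ) (a : ℤ) : Prop := ∀ p : ℕ, p.Prime → ¬ (p : ℤ) ^ k ∣ a

/-- `S_{f,k}(X)`: the number of integers `1 ≤ n ≤ X` with `f(n)` `k`-power-free. -/
noncomputable def S (f : Polynomial ℤ) (k : ℕ) (X : ℝ) : ℕ :=
  Nat.card {n : ℕ // 1 ≤ n ∧ (n : ℝ) ≤ X ∧ PowerFree k (f.eval (n : ℤ))}

theorem rho_eq (f : Polynomial ℤ) (q : ℕ) (hq : 0 < q) : rho f q = Vale.Agent.P018.rho f q := by
  classical
  haveI : NeZero q := ⟨hq.ne'⟩
  unfold rho Vale.Agent.P018.rho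
  rw [Nat.card_eq_fintype_card, Fintype.card_subtype]
  have key : ∀ a : ℕ, Polynomial.aeval (a : ZMod q) f = ((f.eval (a : ℤ) : ℤ) : ZMod q) := by
    intro a
    have := Polynomial.aeval_algebraMap_apply_eq_algebraMap_eval (A := ZMod q) (a : ℤ) f
    simpa using this
  refine Finset.card_bij (fun a _ => a.val) (fun a ha => ?_) (fun a _ b _ h => ZMod.val_injective q h)
    (fun b hb => ?_)
  · refine Finset.mem_filter.2 ⟨Finset.mem_range.2 (ZMod.val_lt a), ?_⟩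
    rw [← ZMod.intCast_zmod_eq_zero_iff_dvd, ← key, ZMod.natCast_zmod_val]
    exact (Finset.mem_filter.1 ha).2
  · obtain ⟨h1, h2⟩ := Finset.mem_filter.1 hb
    refine ⟨(b : ZMod q), Finset.mem_filter.2 ⟨Finset.mem_univ _, ?_⟩,
      ZMod.val_cast_of_lt (Finset.mem_range.1 h1)⟩
    rw [key, ZMod.intCast_zmod_eq_zero_iff_dvd]
    exact h2

open Classical in
theorem S_eq (f : Polynomial ℤ) (k : ℕ) (X : ℝ) (hX : 0 ≤ X) : S f k X =
    ((Finset.Icc 1 ⌊X⌋₊).filter (fun n : ℕ =>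
      ∀ p : ℕ, p.Prime → ¬ (p : ℤ) ^ k ∣ f.eval (n : ℤ))).card := by
  unfold S
  rw [← Nat.card_eq_finsetCard]
  refine Nat.card_congr (Equiv.subtypeEquivRight (fun n => ?_))
  simp only [Finset.mem_filter, Finset.mem_Icc, Nat.le_floor_iff hX, PowerFree, and_assoc]

theorem two_le_of_sum (d k : ℕ)
    (h : ∑ r ∈ Finset.Icc 1 (d + 1), min ((4 * k : ℝ) ^ ((r : ℝ)⁻¹)) 4 < 4 * k) : 2 ≤ k := by
  have h0 : ∀ r ∈ Finset.Icc 1 (d + 1), (0 : ℝ) ≤ min ((4 * k : ℝ) ^ ((r : ℝ)⁻¹)) 4 :=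
    fun r _ => le_min (by positivity) (by norm_num)
  have h1 := Finset.single_le_sum h0 (a := 1) (by simp)
  by_contra hk
  have : k = 0 ∨ k = 1 := by omega
  rcases this with rfl | rfl <;> norm_num at h h1 <;> linarith

theorem result (f : Polynomial ℤ) (hf : Irreducible (f.map (Int.castRingHom ℚ))) (d k : ℕ)
    (hdeg : f.natDegree = d) (hd : 4 ≤ d)
    (hk : d ≤ 2 * k ∨ (d : ℝ) / 4 + Real.log d ^ 2 ≤ k ∨
      ∑ r ∈ Finset.Icc 1 (d + 1), min ((4 * k : ℝ) ^ ((r : ℝ)⁻¹)) 4 < 4 * k)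
    (hloc : ∀ p : ℕ, p.Prime → rho f (p ^ k) < p ^ k) :
    ∃ c δ : ℝ, 0 < δ ∧
      HasProd (fun p : Nat.Primes => 1 - (rho f (p ^ k) : ℝ) / ((p : ℕ) : ℝ) ^ k) c ∧
      0 < c ∧ (fun X : ℝ => (S f k X : ℝ) - c * X) =O[atTop] (fun X : ℝ => X ^ (1 - δ)) := by
  classical
  have hk2 : 2 ≤ k := by
    rcases hk with h | h | h
    · omega
    · have h1 : (4 : ℝ) ≤ d := by exact_mod_cast hd
      have h2 : 0 < Real.log d := Real.log_pos (by linarith)
      have h3 : (1 : ℝ) < k := by nlinarith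
      have : 1 < k := by exact_mod_cast h3
      omega
    · exact two_le_of_sum d k h
  obtain ⟨k0, k1, k2, k3, hF⟩ : ∃ k0, 2 ≤ k0 ∧ k0 < d ∧ k0 ≤ k ∧ Vale.Agent.P018.Feas d k0 := by
    by_cases h0 : d - 2 ≤ k
    · exact ⟨d - 2, by omega, by omega, h0, Vale.Agent.P018.feas_two d hd⟩
    by_cases h1 : d ≤ 2 * k
    · refine ⟨(d + 1) / 2, by omega, by omega, by omega, ?_⟩
      by_cases h2 : d < 60
      · exact Vale.Agent.P018.feas_half_small d (by omega) h2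
      · exact Vale.Agent.P018.feas_half_large d (by omega)
    · refine ⟨k, hk2, by omega, le_rfl, ?_⟩
      rcases hk with h | h | h
      · exact absurd h h1
      · exact Vale.Agent.P018.feas_log d k hd (by omega) h
      · exact Vale.Agent.P018.feas_of_sum d k hd hk2 h
  obtain ⟨δ, K₀, d0, d1, hb⟩ := Vale.Agent.P018.big3 f hf d k0 hdeg hd k1 k2 hF
  obtain ⟨c, K, h1, h2, h3⟩ := Vale.Agent.P018.sieve2 f hf (by omega) k hk2 δ K₀ d0 d1
    (hb.mono fun X hX => le_trans (Nat.cast_le.2 (Finset.card_le_card (fun n hn => by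
      obtain ⟨h1, p, p1, p2, p3⟩ := Finset.mem_filter.1 hn
      exact Finset.mem_filter.2 ⟨h1, p, p1, p2, (pow_dvd_pow _ k3).trans p3⟩))) hX)
  refine ⟨c, δ, d0, ?_, h2 (fun p hp => ?_), ?_⟩
  · convert h1 using 4 with p
    rw [rho_eq f _ (pow_pos p.2.pos _)]
  · rw [← rho_eq f _ (pow_pos hp.pos _)]
    exact hloc p hp
  · refine Asymptotics.IsBigO.of_bound (|K| + |c|) ?_
    filter_upwards [eventually_ge_atTop 1, (tendsto_nat_floor_atTop (α := ℝ)).eventually h3]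
      with X hX h4
    have hX0 : (0 : ℝ) ≤ X := by linarith
    have f1 : ((⌊X⌋₊ : ℕ) : ℝ) ≤ X := Nat.floor_le hX0
    have f2 : X < ((⌊X⌋₊ : ℕ) : ℝ) + 1 := Nat.lt_floor_add_one X
    have p1 : 1 ≤ X ^ (1 - δ) := Real.one_le_rpow hX (by linarith)
    have p2 : ((⌊X⌋₊ : ℕ) : ℝ) ^ (1 - δ) ≤ X ^ (1 - δ) :=
      Real.rpow_le_rpow (Nat.cast_nonneg _) f1 (by linarith)
    have p3 : K * ((⌊X⌋₊ : ℕ) : ℝ) ^ (1 - δ) ≤ |K| * X ^ (1 - δ) :=
      mul_le_mul (le_abs_self K) p2 (by positivity) (abs_nonneg K)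
    have p4 : |c * ((⌊X⌋₊ : ℕ) : ℝ) - c * X| ≤ |c| * X ^ (1 - δ) := by
      rw [← mul_sub, abs_mul]
      refine mul_le_mul_of_nonneg_left ?_ (abs_nonneg c)
      rw [abs_le]
      constructor <;> linarith
    rw [S_eq f k X hX0, Real.norm_eq_abs, Real.norm_eq_abs, abs_of_nonneg (by linarith : 0 ≤ X ^ (1 - δ)),
      add_mul]
    exact (abs_sub_le _ (c * ((⌊X⌋₊ : ℕ) : ℝ)) _).trans (add_le_add (h4.trans p3) p4)

end Vale.Agent.Results.P018.Saving
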